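import Vale.Agent.P298.Bdl.B1
import Mathlib.Analysis.Complex.Schwarz
import Mathlib.Data.Set.Finite.List

/-!
P298, block IRV, row MULT (helper513): if the germs `s₁, …, s_k` at `0 ∈ ℂⁿ` have finite
colength `d`, then near `0` every fibre of `(s₁, …, s_k)` has at most `d` points.
-/

namespace Vale.Agent.P298.H513

open Filter Topology Metric Set Vale.Agent.P298

variable {n k : ℕ}

/-- `h` is analytic on the polydisc of radius `r` and bounded by `B` there -/
def BA (r B : ℝ) (h : (Fin n → ℂ) → ℂ) : Prop :=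
  AnalyticOnNhd ℂ h (ball 0 r) ∧ ∀ x ∈ ball (0 : Fin n → ℂ) r, ‖h x‖ ≤ B

theorem BA.mono {r B B' : ℝ} {h : (Fin n → ℂ) → ℂ} (hh : BA r B h) (hB : B ≤ B') : BA r B' h :=
  ⟨hh.1, fun x hx => (hh.2 x hx).trans hB⟩

theorem BA.add {r B B' : ℝ} {h g : (Fin n → ℂ) → ℂ} (hh : BA r B h) (hg : BA r B' g) :
    BA r (B + B') (fun x => h x + g x) :=
  ⟨fun x hx => (hh.1 x hx).add (hg.1 x hx),
    fun x hx => (norm_add_le _ _).trans (add_le_add (hh.2 x hx) (hg.2 x hx))⟩

theorem BA.mul {r B B' : ℝ} {h g : (Fin n → ℂ) → ℂ} (hh : BA r B h) (hg : BA r B' g)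
    (hB : 0 ≤ B) : BA r (B * B') (fun x => h x * g x) :=
  ⟨fun x hx => (hh.1 x hx).mul (hg.1 x hx), fun x hx => by
    rw [norm_mul]
    exact mul_le_mul (hh.2 x hx) (hg.2 x hx) (norm_nonneg _) hB⟩

theorem BA.const_mul {r B : ℝ} {h : (Fin n → ℂ) → ℂ} (hh : BA r B h) (c : ℂ) :
    BA r (‖c‖ * B) (fun x => c * h x) :=
  ⟨fun x hx => analyticAt_const.mul (hh.1 x hx), fun x hx => by
    rw [norm_mul]
    exact mul_le_mul_of_nonneg_left (hh.2 x hx) (norm_nonneg _)⟩

theorem BA.sum {r : ℝ} {ι : Type*} (t : Finset ι) {B : ι → ℝ} {h : ι → (Fin n → ℂ) → ℂ}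
    (hh : ∀ i ∈ t, BA r (B i) (h i)) : BA r (∑ i ∈ t, B i) (fun x => ∑ i ∈ t, h i x) :=
  ⟨fun x hx => Finset.analyticAt_fun_sum t fun i hi => (hh i hi).1 x hx, fun x hx =>
    norm_sum_le_of_le _ fun i hi => (hh i hi).2 x hx⟩

/-- setting the coordinate `i` to zero -/
noncomputable def proj0 (i : Fin n) : (Fin n → ℂ) →L[ℂ] (Fin n → ℂ) :=
  ContinuousLinearMap.pi fun j => if j = i then 0 else ContinuousLinearMap.proj j

theorem proj0_apply (i : Fin n) (x : Fin n → ℂ) : proj0 i x = Function.update x i 0 := by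
  funext j
  by_cases h : j = i
  · subst h; simp [proj0]
  · simp [proj0, h]

theorem norm_proj0_le (i : Fin n) : ‖proj0 i‖ ≤ 1 := by
  refine ContinuousLinearMap.opNorm_le_bound _ zero_le_one fun x => ?_
  rw [one_mul, pi_norm_le_iff_of_nonneg (norm_nonneg _)]
  intro j
  rw [proj0_apply]
  by_cases h : j = i
  · subst h; simp
  · simpa [h] using norm_le_pi_norm x j

theorem update_mem_ball {r : ℝ} {x : Fin n → ℂ} (hx : x ∈ ball (0 : Fin n → ℂ) r)
    (i : Fin n) {s : ℂ} (hs : s ∈ ball (0 : ℂ) r) :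
    Function.update x i s ∈ ball (0 : Fin n → ℂ) r := by
  rw [mem_ball_zero_iff] at hx hs ⊢
  have hr : 0 < r := (norm_nonneg _).trans_lt hx
  rw [pi_norm_lt_iff hr] at hx ⊢
  intro j
  by_cases h : j = i
  · subst h; simpa using hs
  · simpa [h] using hx j

theorem mem_ball_apply {r : ℝ} {x : Fin n → ℂ} (hx : x ∈ ball (0 : Fin n → ℂ) r)
    (i : Fin n) : x i ∈ ball (0 : ℂ) r := by
  rw [mem_ball_zero_iff] at hx ⊢
  exact (norm_le_pi_norm x i).trans_lt hx

theorem analyticAt_update (x : Fin n → ℂ) (i : Fin n) (s : ℂ) :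
    AnalyticAt ℂ (fun s : ℂ => Function.update x i s) s := by
  have h1 : (fun s : ℂ => Function.update x i s) = fun s : ℂ =>
      Function.update x i 0 + (ContinuousLinearMap.single ℂ (fun _ : Fin n => ℂ) i) s := by
    funext s j
    by_cases h : j = i
    · subst h; simp
    · simp [h]
  rw [h1]
  exact analyticAt_const.add (ContinuousLinearMap.analyticAt _ _)

/-- division by one coordinate -/
theorem exists_div1 {r B : ℝ} (hr : 0 < r) (_hB : 0 < B) {h : (Fin n → ℂ) → ℂ}
    (hh : BA r B h) (i : Fin n) :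
    ∃ g : (Fin n → ℂ) → ℂ, BA r (2 * B / r) g ∧
      ∀ x ∈ ball (0 : Fin n → ℂ) r, h x = h (Function.update x i 0) + x i * g x := by
  have h0r : (0 : ℂ) ∈ ball (0 : ℂ) r := mem_ball_self hr
  have hid : ∀ x : Fin n → ℂ, x i * dslope (fun s => h (Function.update x i s)) 0 (x i) =
      h x - h (Function.update x i 0) := by
    intro x
    have h1 := sub_smul_dslope (fun s => h (Function.update x i s)) 0 (x i)
    simp only [sub_zero, smul_eq_mul, Function.update_eq_self] at h1
    exact h1
  refine ⟨fun x => dslope (fun s => h (Function.update x i s)) 0 (x i), ⟨?_, ?_⟩, ?_⟩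
  · intro x₀ hx₀
    by_cases hi : x₀ i = 0
    · -- near the hyperplane
      obtain ⟨Q, hQ, hQ1⟩ := exists_division (proj0 i) (norm_proj0_le i) (hh.1 x₀ hx₀)
      have e0 : proj0 i x₀ = x₀ := by
        rw [proj0_apply]
        funext j
        by_cases hj : j = i
        · subst hj; simp [hi]
        · simp [hj]
      have e1 : ∀ v, x₀ + proj0 i (v - x₀) = Function.update v i 0 := by
        intro v
        rw [map_sub, e0, add_sub_cancel, proj0_apply]
      have e2 : ∀ v : Fin n → ℂ, v - Function.update v i 0 = v i • Pi.single i (1 : ℂ) := by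
        intro v
        funext j
        by_cases hj : j = i
        · subst hj; simp
        · simp [hj]
      have hQ2 : ∀ᶠ v in 𝓝 x₀, h v = h (Function.update v i 0) + v i * Q v (Pi.single i 1) := by
        filter_upwards [hQ1] with v hv
        rw [e1, e2, map_smul, smul_eq_mul] at hv
        rw [← hv]; ring
      have hA : AnalyticAt ℂ (fun v => Q v (Pi.single i 1)) x₀ :=
        ((ContinuousLinearMap.apply ℂ ℂ (Pi.single i 1 : Fin n → ℂ)).analyticAt _).comp hQ
      refine hA.congr ?_
      filter_upwards [hQ2.eventually_nhds, hA.eventually_analyticAt] with v hv hAv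
      by_cases hvi : v i = 0
      · -- derivative
        have e3 : Function.update v i 0 = v := by
          funext j
          by_cases hj : j = i
          · subst hj; simp [hvi]
          · simp [hj]
        rw [hvi, dslope_same]
        have hup : Tendsto (fun s : ℂ => Function.update v i s) (𝓝 0) (𝓝 v) := by
          have := (analyticAt_update v i 0).continuousAt.tendsto
          rwa [e3] at this
        have h5 : ∀ᶠ s in 𝓝 (0 : ℂ), h (Function.update v i s) =
            h v + s * Q (Function.update v i s) (Pi.single i 1) := by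
          filter_upwards [hup.eventually hv] with s hs
          rw [Function.update_idem, Function.update_self, e3] at hs
          exact hs
        have hq : DifferentiableAt ℂ
            (fun s : ℂ => Q (Function.update v i s) (Pi.single i 1)) 0 := by
          have h6 : AnalyticAt ℂ (fun v => Q v (Pi.single i 1)) (Function.update v i 0) := by
            rw [e3]; exact hAv
          exact (h6.comp (analyticAt_update v i 0)).differentiableAt
        have h7 := ((hasDerivAt_id (0 : ℂ)).mul hq.hasDerivAt).const_add (h v)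
        have h8 : HasDerivAt (fun s : ℂ => h (Function.update v i s))
            (Q v (Pi.single i 1)) 0 := by
          have h9 : HasDerivAt (fun s : ℂ => h v + s * Q (Function.update v i s) (Pi.single i 1))
              (Q v (Pi.single i 1)) 0 := by
            have h10 := h7.congr_deriv (g' := Q v (Pi.single i 1)) (by simp [e3])
            exact h10
          exact h9.congr_of_eventuallyEq h5
        exact h8.deriv.symm
      · have h10 := hid v
        have h11 := hv.self_of_nhds
        have h12 : v i * dslope (fun s => h (Function.update v i s)) 0 (v i) =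
            v i * Q v (Pi.single i 1) := by
          rw [h10, h11]; ring
        exact (mul_left_cancel₀ hvi h12).symm
    · -- away from the hyperplane
      have hc : ∀ᶠ v : Fin n → ℂ in 𝓝 x₀, v i ≠ 0 :=
        (continuous_apply i).continuousAt.eventually_ne hi
      have hA : AnalyticAt ℂ (fun v : Fin n → ℂ => (h v - h (proj0 i v)) / v i) x₀ := by
        have h1 : AnalyticAt ℂ h (proj0 i x₀) := by
          rw [proj0_apply]
          exact hh.1 _ (update_mem_ball hx₀ i h0r)
        refine ((hh.1 x₀ hx₀).sub (h1.comp ((proj0 i).analyticAt x₀))).div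
          ((ContinuousLinearMap.proj (R := ℂ) (φ := fun _ : Fin n => ℂ) i).analyticAt x₀) hi
      refine hA.congr ?_
      filter_upwards [hc] with v hv
      have h10 := hid v
      rw [proj0_apply, ← h10, mul_div_cancel_left₀ _ hv]
  · intro x hx
    have hd : DifferentiableOn ℂ (fun s : ℂ => h (Function.update x i s)) (ball 0 r) := by
      intro s hs
      have h1 : AnalyticAt ℂ h (Function.update x i s) := hh.1 _ (update_mem_ball hx i hs)
      exact (AnalyticAt.comp (g := h) (f := fun s : ℂ => Function.update x i s) h1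
        (analyticAt_update x i s)).differentiableAt.differentiableWithinAt
    refine Complex.norm_dslope_le_div_of_mapsTo_ball hd ?_ (mem_ball_apply hx i)
    intro s hs
    rw [mem_closedBall_iff_norm]
    calc _ ≤ ‖h (Function.update x i s)‖ + ‖h (Function.update x i 0)‖ := norm_sub_le _ _
      _ ≤ B + B := add_le_add (hh.2 _ (update_mem_ball hx i hs))
          (hh.2 _ (update_mem_ball hx i h0r))
      _ = 2 * B := by ring
  · intro x _
    rw [hid x]; ring

/-- setting the coordinates in `s` to zero -/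
def zr (s : Finset (Fin n)) (x : Fin n → ℂ) : Fin n → ℂ := fun j => if j ∈ s then 0 else x j

theorem zr_mem_ball {r : ℝ} {x : Fin n → ℂ} (hx : x ∈ ball (0 : Fin n → ℂ) r)
    (s : Finset (Fin n)) : zr s x ∈ ball (0 : Fin n → ℂ) r := by
  rw [mem_ball_zero_iff] at hx ⊢
  have hr : 0 < r := (norm_nonneg _).trans_lt hx
  rw [pi_norm_lt_iff hr] at hx ⊢
  intro j
  by_cases h : j ∈ s
  · simpa [zr, h] using hr
  · simpa [zr, h] using hx j

theorem analyticAt_zr (s : Finset (Fin n)) (x : Fin n → ℂ) : AnalyticAt ℂ (zr s) x := by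
  have h1 : (zr s : (Fin n → ℂ) → (Fin n → ℂ)) =
      (ContinuousLinearMap.pi fun j => if j ∈ s then 0 else
        ContinuousLinearMap.proj j : (Fin n → ℂ) →L[ℂ] (Fin n → ℂ)) := by
    funext x j
    by_cases h : j ∈ s
    · simp [zr, h]
    · simp [zr, h]
  rw [h1]
  exact ContinuousLinearMap.analyticAt _ _

/-- Hadamard's lemma with bounds on a fixed polydisc -/
theorem exists_div {r B : ℝ} (hr : 0 < r) (hB : 0 < B) {h : (Fin n → ℂ) → ℂ}
    (hh : BA r B h) :
    ∃ g : Fin n → (Fin n → ℂ) → ℂ, (∀ i, BA r (2 * B / r) (g i)) ∧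
      ∀ x ∈ ball (0 : Fin n → ℂ) r, h x = h 0 + ∑ i, x i * g i x := by
  have key : ∀ s : Finset (Fin n), ∃ g : Fin n → (Fin n → ℂ) → ℂ,
      (∀ i, BA r (2 * B / r) (g i)) ∧
      ∀ x ∈ ball (0 : Fin n → ℂ) r, h x = h (zr s x) + ∑ i ∈ s, x i * g i x := by
    intro s
    induction s using Finset.induction_on with
    | empty =>
      refine ⟨fun _ _ => 0, fun i => ⟨fun x _ => analyticAt_const, fun x _ => ?_⟩, ?_⟩
      · simp only [norm_zero]; positivity
      · intro x _
        have : zr ∅ x = x := by funext j; simp [zr]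
        rw [this]; simp
    | insert i s hi ih =>
      obtain ⟨g, hg, hg1⟩ := ih
      have hs : BA r B (fun x => h (zr s x)) :=
        ⟨fun x hx => AnalyticAt.comp (g := h) (f := zr s) (hh.1 _ (zr_mem_ball hx s))
          (analyticAt_zr s x), fun x hx => hh.2 _ (zr_mem_ball hx s)⟩
      obtain ⟨g', hg', hg1'⟩ := exists_div1 hr hB hs i
      refine ⟨Function.update g i g', ?_, ?_⟩
      · intro j
        by_cases hj : j = i
        · subst hj; simpa using hg'
        · simpa [hj] using hg j
      · intro x hx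
        rw [hg1 x hx, Finset.sum_insert hi, Function.update_self]
        have h1 := hg1' x hx
        have h2 : zr s (Function.update x i 0) = zr (insert i s) x := by
          funext j
          by_cases hj : j = i
          · subst hj; simp [zr]
          · simp [zr, hj]
        simp only [h2] at h1
        rw [h1]
        have h3 : ∑ j ∈ s, x j * Function.update g i g' j x = ∑ j ∈ s, x j * g j x := by
          refine Finset.sum_congr rfl fun j hj => ?_
          have : j ≠ i := fun e => hi (e ▸ hj)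
          rw [Function.update_of_ne this]
        rw [h3]; ring
  obtain ⟨g, hg, hg1⟩ := key Finset.univ
  refine ⟨g, hg, fun x hx => ?_⟩
  rw [hg1 x hx]
  have : zr Finset.univ x = 0 := by funext j; simp [zr]
  rw [this]

/-- A germ is analytic and bounded on all small polydiscs. -/
theorem eventually_BA {h : (Fin n → ℂ) → ℂ} (hh : Hol h) :
    ∀ᶠ r : ℝ in 𝓝[>] 0, ∃ B, BA r B h := by
  have h1 : ∀ᶠ x in 𝓝 (0 : Fin n → ℂ), AnalyticAt ℂ h x ∧ ‖h x‖ ≤ ‖h 0‖ + 1 := by
    have hc : ContinuousAt h 0 := AnalyticAt.continuousAt hh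
    have h2 := hc.norm.eventually_lt (continuousAt_const (y := ‖h 0‖ + 1)) (by simp)
    filter_upwards [AnalyticAt.eventually_analyticAt hh, h2] with x hx hx2
    exact ⟨hx, hx2.le⟩
  obtain ⟨ε, hε, h3⟩ := Metric.eventually_nhds_iff_ball.1 h1
  filter_upwards [Ioo_mem_nhdsGT hε] with r hr
  exact ⟨‖h 0‖ + 1, fun x hx => (h3 x (ball_subset_ball hr.2.le hx)).1,
    fun x hx => (h3 x (ball_subset_ball hr.2.le hx)).2⟩

theorem eventually_ball {p : (Fin n → ℂ) → Prop} (hp : ∀ᶠ x in 𝓝 (0 : Fin n → ℂ), p x) :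
    ∀ᶠ r : ℝ in 𝓝[>] 0, ∀ x ∈ ball (0 : Fin n → ℂ) r, p x := by
  obtain ⟨ε, hε, h3⟩ := Metric.eventually_nhds_iff_ball.1 hp
  filter_upwards [Ioo_mem_nhdsGT hε] with r hr x hx
  exact h3 x (ball_subset_ball hr.2.le hx)

/-- the monomial of a word -/
def wd (w : List (Fin n)) (x : Fin n → ℂ) : ℂ := (w.map x).prod

theorem wd_cons (i : Fin n) (w : List (Fin n)) (x : Fin n → ℂ) :
    wd (i :: w) x = x i * wd w x := by
  simp [wd]

theorem hol_wd (w : List (Fin n)) : Hol (wd w) := by
  induction w with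
  | nil =>
    have : (wd [] : (Fin n → ℂ) → ℂ) = fun _ => 1 := by funext x; simp [wd]
    rw [this]; exact analyticAt_const
  | cons i w ih =>
    have : (wd (i :: w) : (Fin n → ℂ) → ℂ) = fun x => x i * wd w x := by
      funext x; exact wd_cons i w x
    rw [this]
    exact ((ContinuousLinearMap.proj (R := ℂ) (φ := fun _ : Fin n => ℂ) i).analyticAt 0).mul ih

theorem wd_mem (w : List (Fin n)) : (⟨wd w, hol_wd w⟩ : AnFun n) ∈ mX n ^ w.length := by
  induction w with
  | nil => simp
  | cons i w ih =>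
    have h1 : (⟨wd (i :: w), hol_wd (i :: w)⟩ : AnFun n) = coordF n i * ⟨wd w, hol_wd w⟩ := by
      apply Subtype.ext
      funext x
      exact wd_cons i w x
    rw [h1, List.length_cons, pow_succ']
    exact Ideal.mul_mem_mul (Ideal.subset_span ⟨i, rfl⟩) ih

variable {d : ℕ}

/-- The division with bounds on a fixed polydisc: `h = ∑ cᵢ bᵢ + ∑ sₗ gₗ`. -/
theorem exists_bounded_div {s : Fin k → (Fin n → ℂ) → ℂ} (hs : ∀ j, Hol (s j))
    (h : Colength s d) :
    ∃ b : Fin d → (Fin n → ℂ) → ℂ, ∀ᶠ r : ℝ in 𝓝[>] 0, ∃ K : ℝ, 0 < K ∧ ∀ B : ℝ, 0 < B →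
      ∀ f : (Fin n → ℂ) → ℂ, BA r B f → ∃ (c : Fin d → ℂ) (g : Fin k → (Fin n → ℂ) → ℂ),
        (∀ l, BA r (K * B) (g l)) ∧
        ∀ x ∈ ball (0 : Fin n → ℂ) r, f x = ∑ i, c i * b i x + ∑ l, s l x * g l x := by
  obtain ⟨M, hM⟩ := qM_le n d
  have hHC := hasColength_of_colength hs h
  have hMle := hM M le_rfl _ hHC
  obtain ⟨b, hb, H⟩ := h
  refine ⟨b, ?_⟩
  -- the identities for the words
  have h1 : ∀ w : List (Fin n), ∃ (c : Fin d → ℂ) (v : Fin k → (Fin n → ℂ) → ℂ),
      (∀ l, Hol (v l)) ∧ ∀ᶠ x in 𝓝 0, wd w x = ∑ i, c i * b i x + ∑ l, s l x * v l x := by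
    intro w
    obtain ⟨c, ⟨v, hv, hx⟩, -⟩ := H (wd w) (hol_wd w)
    refine ⟨c, v, hv, ?_⟩
    filter_upwards [hx] with x hx
    have : ∑ l, s l x * v l x = ∑ l, v l x * s l x :=
      Finset.sum_congr rfl fun l _ => mul_comm _ _
    rw [this, ← hx]; ring
  have h2 : ∀ w : List (Fin n), w.length = M → ∃ v : Fin k → (Fin n → ℂ) → ℂ,
      (∀ l, Hol (v l)) ∧ ∀ᶠ x in 𝓝 0, wd w x = ∑ l, s l x * v l x := by
    intro w hw
    have h3 : (⟨wd w, hol_wd w⟩ : AnFun n) ∈ locIdeal (Set.range s) := by
      refine hMle ?_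
      rw [qM, ← hw]
      exact Ideal.mem_sup_right (wd_mem w)
    rw [mem_locIdeal_iff hs] at h3
    obtain ⟨v, hv, hx⟩ := h3
    refine ⟨v, hv, ?_⟩
    filter_upwards [hx] with x hx
    rw [show wd w x = _ from hx]
    exact Finset.sum_congr rfl fun l _ => mul_comm _ _
  have h3 : ∀ w : List (Fin n), ∃ (c : Fin d → ℂ) (v : Fin k → (Fin n → ℂ) → ℂ),
      (∀ l, Hol (v l)) ∧ (∀ᶠ x in 𝓝 0, wd w x = ∑ i, c i * b i x + ∑ l, s l x * v l x) ∧
      (w.length = M → c = 0) := by
    intro w
    by_cases hw : w.length = M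
    · obtain ⟨v, hv, hx⟩ := h2 w hw
      refine ⟨0, v, hv, ?_, fun _ => rfl⟩
      simpa using hx
    · obtain ⟨c, v, hv, hx⟩ := h1 w
      exact ⟨c, v, hv, hx, fun h => absurd h hw⟩
  choose c v hv hx hc using h3
  have h4 : ∀ᶠ r : ℝ in 𝓝[>] 0, ∀ w ∈ {w : List (Fin n) | w.length ≤ M},
      (∀ x ∈ ball (0 : Fin n → ℂ) r,
        wd w x = ∑ i, c w i * b i x + ∑ l, s l x * v w l x) ∧
      ∀ l, ∃ B, BA r B (v w l) := by
    rw [Filter.eventually_all_finite (List.finite_length_le (Fin n) M)]
    intro w _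
    refine (eventually_ball (hx w)).and ?_
    rw [Filter.eventually_all]
    exact fun l => eventually_BA (hv w l)
  filter_upwards [h4, self_mem_nhdsWithin] with r hr hr0
  have hr0' : (0 : ℝ) < r := hr0
  -- downward induction
  have key : ∀ m : ℕ, ∀ w : List (Fin n), w.length + m = M → ∃ K : ℝ, 0 < K ∧
      ∀ B : ℝ, 0 < B → ∀ f : (Fin n → ℂ) → ℂ, BA r B f →
      ∃ (c : Fin d → ℂ) (g : Fin k → (Fin n → ℂ) → ℂ), (∀ l, BA r (K * B) (g l)) ∧
        ∀ x ∈ ball (0 : Fin n → ℂ) r,
          wd w x * f x = ∑ i, c i * b i x + ∑ l, s l x * g l x := by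
    intro m
    induction m with
    | zero =>
      intro w hw
      have hw' : w.length = M := by omega
      obtain ⟨e1, e2⟩ := hr w (le_of_eq hw')
      choose Bv hBv using e2
      refine ⟨∑ l, |Bv l| + 1, by positivity, fun B hB f hf => ?_⟩
      refine ⟨0, fun l x => v w l x * f x, fun l => ?_, fun x hx => ?_⟩
      · have h5 : BA r (∑ l, |Bv l| + 1) (v w l) := (hBv l).mono <| by
          have := Finset.single_le_sum (f := fun l => |Bv l|) (fun i _ => abs_nonneg _)
            (Finset.mem_univ l)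
          have h6 := le_abs_self (Bv l)
          linarith
        exact h5.mul hf (by positivity)
      · rw [e1 x hx, hc w hw']
        simp only [Pi.zero_apply, zero_mul, Finset.sum_const_zero, zero_add]
        rw [Finset.sum_mul]
        exact Finset.sum_congr rfl fun l _ => by ring
    | succ m ih =>
      intro w hw
      obtain ⟨e1, e2⟩ := hr w (show w.length ≤ M by omega)
      choose Bv hBv using e2
      choose K hK ihK using fun i : Fin n => ih (i :: w) (by rw [List.length_cons]; omega)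
      refine ⟨∑ l, |Bv l| + ∑ i, K i * (2 / r) + 1, ?_, fun B hB f hf => ?_⟩
      · have : ∀ i, 0 < K i * (2 / r) := fun i => mul_pos (hK i) (by positivity)
        have : 0 ≤ ∑ i, K i * (2 / r) := Finset.sum_nonneg fun i _ => (this i).le
        positivity
      obtain ⟨q, hq, hq1⟩ := exists_div hr0' hB hf
      choose c' g' hg' hg1 using fun i : Fin n => ihK i (2 * B / r) (by positivity) (q i) (hq i)
      refine ⟨fun j => f 0 * c w j + ∑ i, c' i j,
        fun l x => f 0 * v w l x + ∑ i, g' i l x, fun l => ?_, fun x hx => ?_⟩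
      · have h5 := ((hBv l).const_mul (f 0)).add
          (BA.sum Finset.univ (fun i _ => hg' i l))
        refine h5.mono ?_
        have h0 : ‖f 0‖ ≤ B := hf.2 0 (mem_ball_self hr0')
        have h6 : ‖f 0‖ * Bv l ≤ B * ∑ l, |Bv l| := by
          refine mul_le_mul h0 ?_ ((norm_nonneg _).trans
            ((hBv l).2 0 (mem_ball_self hr0'))) hB.le
          exact (le_abs_self _).trans (Finset.single_le_sum (f := fun l => |Bv l|)
            (fun i _ => abs_nonneg _) (Finset.mem_univ l))
        have h7 : ∑ i, K i * (2 * B / r) = (∑ i, K i * (2 / r)) * B := by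
          rw [Finset.sum_mul]
          exact Finset.sum_congr rfl fun i _ => by ring
        rw [h7]
        nlinarith [h6, hB]
      · have h8 : wd w x * f x = f 0 * wd w x + ∑ i, wd (i :: w) x * q i x := by
          rw [hq1 x hx, mul_add, Finset.mul_sum]
          congr 1
          · ring
          · refine Finset.sum_congr rfl fun i _ => ?_
            rw [wd_cons]; ring
        have h9 : ∑ i, ∑ j, c' i j * b j x = ∑ j, (∑ i, c' i j) * b j x := by
          rw [Finset.sum_comm]
          exact Finset.sum_congr rfl fun j _ => by rw [Finset.sum_mul]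
        have h10 : ∑ i, ∑ l, s l x * g' i l x = ∑ l, s l x * ∑ i, g' i l x := by
          rw [Finset.sum_comm]
          exact Finset.sum_congr rfl fun j _ => by rw [Finset.mul_sum]
        rw [h8, e1 x hx, Finset.sum_congr rfl fun i _ => hg1 i x hx, Finset.sum_add_distrib,
          h9, h10, mul_add, Finset.mul_sum, Finset.mul_sum]
        simp only [add_mul, mul_add, Finset.sum_add_distrib]
        have h11 : ∑ i, f 0 * (c w i * b i x) = ∑ i, f 0 * c w i * b i x :=
          Finset.sum_congr rfl fun i _ => by ring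
        have h12 : ∑ l, f 0 * (s l x * v w l x) = ∑ l, s l x * (f 0 * v w l x) :=
          Finset.sum_congr rfl fun l _ => by ring
        rw [h11, h12]
        ring
  obtain ⟨K, hK, hK1⟩ := key M [] (by simp)
  refine ⟨K, hK, fun B hB f hf => ?_⟩
  obtain ⟨c', g', hg', hx'⟩ := hK1 B hB f hf
  refine ⟨c', g', hg', fun x hx => ?_⟩
  have := hx' x hx
  simpa [wd] using this

/-- the Lagrange functions of a finite set of points -/
theorem exists_lagrange {r : ℝ} (X : Finset (Fin n → ℂ)) (x₀ : Fin n → ℂ) :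
    ∃ (B : ℝ) (f : (Fin n → ℂ) → ℂ), 0 < B ∧ BA r B f ∧ f x₀ = 1 ∧
      ∀ x ∈ X, x ≠ x₀ → f x = 0 := by
  classical
  induction X using Finset.induction_on with
  | empty =>
    exact ⟨1, fun _ => 1, one_pos, ⟨fun _ _ => analyticAt_const, fun _ _ => by simp⟩, rfl,
      fun x hx => absurd hx (Finset.notMem_empty x)⟩
  | insert y X _ ih =>
    obtain ⟨B, f, hB, hf, h0, h1⟩ := ih
    by_cases hy : y = x₀
    · refine ⟨B, f, hB, hf, h0, fun x hx hne => ?_⟩
      rcases Finset.mem_insert.1 hx with rfl | hx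
      · exact absurd hy hne
      · exact h1 x hx hne
    · obtain ⟨i, hi⟩ := Function.ne_iff.1 hy
      have hi' : x₀ i - y i ≠ 0 := sub_ne_zero.2 (Ne.symm hi)
      have hg : BA r ((|r| + ‖y i‖) / ‖x₀ i - y i‖ + 1)
          (fun x : Fin n → ℂ => (x i - y i) / (x₀ i - y i)) := by
        refine ⟨fun x _ => ?_, fun x hx => ?_⟩
        · exact (((ContinuousLinearMap.proj (R := ℂ) (φ := fun _ : Fin n => ℂ) i).analyticAt
            x).sub analyticAt_const).div analyticAt_const hi'
        · rw [norm_div]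
          have h2 : ‖x i - y i‖ ≤ |r| + ‖y i‖ := by
            refine (norm_sub_le _ _).trans (add_le_add ?_ le_rfl)
            have := mem_ball_apply hx i
            rw [mem_ball_zero_iff] at this
            exact this.le.trans (le_abs_self r)
          have h3 : ‖x i - y i‖ / ‖x₀ i - y i‖ ≤ (|r| + ‖y i‖) / ‖x₀ i - y i‖ := by
            gcongr
          linarith
      refine ⟨B * ((|r| + ‖y i‖) / ‖x₀ i - y i‖ + 1), _, by positivity,
        hf.mul hg hB.le, ?_, fun x hx hne => ?_⟩
      · simp only [h0, one_mul]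
        exact div_self hi'
      · rcases Finset.mem_insert.1 hx with rfl | hx
        · simp
        · simp only [h1 x hx hne, zero_mul]

/-- **MULT**. If the germs `s₁, …, s_k`, vanishing at `0`, have colength `d`, then every fibre of
`(s₁, …, s_k)` in a small polydisc has at most `d` points. -/
theorem encard_fibre_le {s : Fin k → (Fin n → ℂ) → ℂ} (hs : ∀ j, Hol (s j))
    (h0 : ∀ j, s j 0 = 0) (h : Colength s d) :
    ∀ᶠ r : ℝ in 𝓝[>] 0, ∀ q : Fin k → ℂ,
      {x ∈ ball (0 : Fin n → ℂ) r | ∀ j, s j x = q j}.encard ≤ d := by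
  classical
  obtain ⟨b, hb⟩ := exists_bounded_div hs h
  obtain ⟨R, hR, hR0⟩ := (hb.and self_mem_nhdsWithin).exists
  have hR0' : (0 : ℝ) < R := hR0
  obtain ⟨K, hK, hK1⟩ := hR
  set ε : ℝ := 1 / (2 * K * (k + 1)) with hε
  have hε0 : 0 < ε := by positivity
  have h1 : ∀ᶠ x in 𝓝 (0 : Fin n → ℂ), ∀ j, ‖s j x‖ < ε := by
    rw [Filter.eventually_all]
    intro j
    have hc : ContinuousAt (s j) 0 := AnalyticAt.continuousAt (hs j)
    exact hc.norm.eventually_lt continuousAt_const (by simpa [h0 j] using hε0)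
  filter_upwards [eventually_ball h1, Ioc_mem_nhdsGT hR0'] with r hr hrR q
  have hsub : ball (0 : Fin n → ℂ) r ⊆ ball 0 R := ball_subset_ball hrR.2
  set F := {x ∈ ball (0 : Fin n → ℂ) r | ∀ j, s j x = q j} with hF
  -- finite subsets
  have key : ∀ X : Finset (Fin n → ℂ), (X : Set (Fin n → ℂ)) ⊆ F → X.card ≤ d := by
    intro X hX
    rcases X.eq_empty_or_nonempty with rfl | ⟨x₁, hx₁⟩
    · simp
    have hq : ∀ j, ‖q j‖ ≤ ε := fun j => by
      have h2 := hX hx₁
      rw [← h2.2 j]
      exact (hr x₁ h2.1 j).le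
    have hqK : ∑ j, ‖q j‖ * K ≤ 1 / 2 := by
      calc ∑ j, ‖q j‖ * K ≤ ∑ _j : Fin k, ε * K :=
            Finset.sum_le_sum fun j _ => mul_le_mul_of_nonneg_right (hq j) hK.le
        _ = k * (ε * K) := by simp
        _ ≤ (k + 1) * (ε * K) := by
            have : 0 ≤ ε * K := by positivity
            nlinarith
        _ = 1 / 2 := by rw [hε]; field_simp
    set V : Submodule ℂ (X → ℂ) := Submodule.span ℂ (Set.range fun i : Fin d =>
      fun x : X => b i x) with hV
    -- approximation
    have happ : ∀ m : ℕ, ∀ B : ℝ, 0 < B → ∀ f : (Fin n → ℂ) → ℂ, BA R B f →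
        ∃ v ∈ V, ∀ x : X, ‖f x - v x‖ ≤ B / 2 ^ m := by
      intro m
      induction m with
      | zero =>
        intro B hB f hf
        refine ⟨0, V.zero_mem, fun x => ?_⟩
        simpa using hf.2 x (hsub (hX x.2).1)
      | succ m ih =>
        intro B hB f hf
        obtain ⟨c, g, hg, hfg⟩ := hK1 B hB f hf
        have h3 : BA R (B / 2) (fun x => ∑ j, q j * g j x) := by
          refine (BA.sum Finset.univ fun j _ => (hg j).const_mul (q j)).mono ?_
          have : ∑ j, ‖q j‖ * (K * B) = (∑ j, ‖q j‖ * K) * B := by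
            rw [Finset.sum_mul]
            exact Finset.sum_congr rfl fun i _ => by ring
          rw [this]
          nlinarith
        obtain ⟨v, hv, hv1⟩ := ih (B / 2) (by positivity) _ h3
        refine ⟨(∑ i, c i • fun x : X => b i x) + v, V.add_mem
          (V.sum_mem fun i _ => V.smul_mem _ (Submodule.subset_span ⟨i, rfl⟩)) hv, fun x => ?_⟩
        have h4 : f x = ∑ i, c i * b i x + ∑ j, q j * g j x := by
          rw [hfg x (hsub (hX x.2).1)]
          congr 1
          exact Finset.sum_congr rfl fun j _ => by rw [(hX x.2).2 j]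
        have h5 : ((∑ i, c i • fun x : X => b i x) + v) x = ∑ i, c i * b i x + v x := by
          simp [Finset.sum_apply]
        rw [h5, h4]
        have h6 : ∑ i, c i * b i (x : Fin n → ℂ) + ∑ j, q j * g j (x : Fin n → ℂ) -
            (∑ i, c i * b i (x : Fin n → ℂ) + v x) = ∑ j, q j * g j (x : Fin n → ℂ) - v x := by
          ring
        rw [h6]
        refine (hv1 x).trans (le_of_eq ?_)
        rw [pow_succ]; field_simp
    have hmem : ∀ B : ℝ, 0 < B → ∀ f : (Fin n → ℂ) → ℂ, BA R B f →
        (fun x : X => f x) ∈ V := by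
      intro B hB f hf
      have hcl : IsClosed (V : Set (X → ℂ)) := Submodule.closed_of_finiteDimensional V
      rw [← SetLike.mem_coe, ← hcl.closure_eq, Metric.mem_closure_iff]
      intro δ hδ
      obtain ⟨m, hm⟩ := exists_nat_gt (B / δ)
      obtain ⟨v, hv, hv1⟩ := happ m B hB f hf
      refine ⟨v, hv, ?_⟩
      rw [dist_eq_norm]
      have h7 : B / 2 ^ m < δ := by
        rw [div_lt_iff₀ (by positivity)]
        rw [div_lt_iff₀ hδ] at hm
        have h8 : (m : ℝ) ≤ 2 ^ m := by exact_mod_cast (Nat.lt_two_pow_self (n := m)).le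
        nlinarith
      refine lt_of_le_of_lt ?_ h7
      rw [pi_norm_le_iff_of_nonneg (by positivity)]
      exact hv1
    have htop : V = ⊤ := by
      rw [eq_top_iff]
      intro y _
      have h9 : y = ∑ x : X, y x • (Pi.single x (1 : ℂ) : X → ℂ) := by
        funext z
        simp [Finset.sum_apply, Pi.single_apply]
      rw [h9]
      refine V.sum_mem fun x _ => V.smul_mem _ ?_
      obtain ⟨B, f, hB, hf, hf0, hf1⟩ := exists_lagrange (r := R) X (x : Fin n → ℂ)
      have h10 : (Pi.single x (1 : ℂ) : X → ℂ) = fun z : X => f z := by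
        funext z
        by_cases hz : z = x
        · subst hz; simp [hf0]
        · rw [Pi.single_eq_of_ne hz, hf1 z z.2 fun e => hz (Subtype.ext e)]
      rw [h10]
      exact hmem B hB f hf
    have h11 : Module.finrank ℂ V ≤ d := by
      have := finrank_range_le_card (R := ℂ) (fun i : Fin d => fun x : X => b i x)
      simpa [Set.finrank, hV] using this
    rw [htop, finrank_top, Module.finrank_fintype_fun_eq_card, Fintype.card_coe] at h11
    exact h11
  by_contra hcon
  rw [not_le] at hcon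
  have h12 : ((d + 1 : ℕ) : ℕ∞) ≤ F.encard := by
    have := Order.add_one_le_of_lt hcon
    exact_mod_cast this
  obtain ⟨Y, hY, hY1⟩ := Set.exists_subset_encard_eq h12
  have hYf : Y.Finite := Set.finite_of_encard_eq_coe hY1
  have h13 := key hYf.toFinset (by simpa using hY)
  have h14 : (hYf.toFinset.card : ℕ∞) = ((d + 1 : ℕ) : ℕ∞) := by
    rw [← hY1, hYf.encard_eq_coe_toFinset_card]
  have h15 : hYf.toFinset.card = d + 1 := by exact_mod_cast h14
  omega

/-- the form needed for surfaces in `ℂ³` -/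
theorem mult {f a b : (Fin 3 → ℂ) → ℂ} (hf : Hol f) (ha : Hol a) (hb : Hol b)
    (f0 : f 0 = 0) (a0 : a 0 = 0) (b0 : b 0 = 0) {D : ℕ} (h : Colength ![f, a, b] D) :
    ∃ r : ℝ, 0 < r ∧ ∀ r' ≤ r, ∀ q : ℂ × ℂ,
      {x ∈ ball (0 : Fin 3 → ℂ) r' | f x = 0 ∧ a x = q.1 ∧ b x = q.2}.encard ≤ D := by
  have h1 := encard_fibre_le (s := ![f, a, b])
    (fun j => by fin_cases j; exacts [hf, ha, hb])
    (fun j => by fin_cases j; exacts [f0, a0, b0]) h
  obtain ⟨r, hr, hr0⟩ := (h1.and self_mem_nhdsWithin).exists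
  refine ⟨r, hr0, fun r' hr' q => ?_⟩
  refine (Set.encard_le_encard ?_).trans (hr ![0, q.1, q.2])
  rintro x ⟨hx, e1, e2, e3⟩
  refine ⟨ball_subset_ball hr' hx, fun j => ?_⟩
  fin_cases j
  exacts [e1, e2, e3]

end Vale.Agent.P298.H513
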